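import Mathlib

/-!
# S0328 helper library: analysis lemmas

* `partition_sum_sub_integral_le`: tagged sums over a partition versus the integral,
* `approx_lemma`: an elementary perturbation estimate,
* `exists_piece`: every point of `[t 0, t N]` lies in a piece of the partition.
-/

set_option autoImplicit false
open MeasureTheory Set
open scoped ENNReal

namespace Crest.Agent.S0328Lib

/-- One piece: `|Δ * U - ∫ F| ≤ ε * Δ` when `|U - F| ≤ ε` on the piece. -/
lemma piece_integral_bound (t₁ t₂ : ℝ) (h : t₁ ≤ t₂) (F : ℝ → ℝ) (hF : ContinuousOn F (Icc t₁ t₂))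
    (U ε : ℝ) (hU : ∀ τ ∈ Icc t₁ t₂, |U - F τ| ≤ ε) :
    |(t₂ - t₁) * U - ∫ τ in t₁..t₂, F τ| ≤ ε * (t₂ - t₁) := by
  have hFi : IntervalIntegrable F volume t₁ t₂ := by
    apply ContinuousOn.intervalIntegrable
    rwa [uIcc_of_le h]
  have e1 : (t₂ - t₁) * U - ∫ τ in t₁..t₂, F τ = ∫ τ in t₁..t₂, (U - F τ) := by
    rw [intervalIntegral.integral_sub intervalIntegrable_const hFi, intervalIntegral.integral_const]
    simp
  rw [e1]
  have := intervalIntegral.norm_integral_le_of_norm_le_const (a := t₁) (b := t₂)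
    (f := fun τ => U - F τ) (C := ε) (fun x hx => by
      rw [Real.norm_eq_abs]
      rw [uIoc_of_le h] at hx
      exact hU x (Ioc_subset_Icc_self hx))
  rw [Real.norm_eq_abs, abs_of_nonneg (sub_nonneg.mpr h)] at this
  exact this

/-- Riemann-type sums over a partition versus the integral. -/
lemma partition_sum_sub_integral_le : ∀ (N : ℕ) (t : Fin (N + 1) → ℝ) (_ht : Monotone t)
    (F : ℝ → ℝ) (_hF : ContinuousOn F (Icc (t 0) (t (Fin.last N)))) (U : Fin N → ℝ) (ε : ℝ)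
    (_hU : ∀ i : Fin N, ∀ τ ∈ Icc (t i.castSucc) (t i.succ), |U i - F τ| ≤ ε),
    |∑ i : Fin N, (t i.succ - t i.castSucc) * U i - ∫ τ in (t 0)..(t (Fin.last N)), F τ|
      ≤ ε * (t (Fin.last N) - t 0) := by
  intro N
  induction N with
  | zero =>
    intro t ht F hF U ε hU
    simp
  | succ N ih =>
    intro t ht F hF U ε hU
    have h0l : t 0 ≤ t (Fin.last N).castSucc := ht (Fin.zero_le _)
    have hll : t (Fin.last N).castSucc ≤ t (Fin.last (N + 1)) := ht (Fin.le_last _)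
    have hFa : ContinuousOn F (Icc (t 0) (t (Fin.last N).castSucc)) :=
      hF.mono (Icc_subset_Icc le_rfl hll)
    have hFb : ContinuousOn F (Icc (t (Fin.last N).castSucc) (t (Fin.last (N + 1)))) :=
      hF.mono (Icc_subset_Icc h0l le_rfl)
    have ih' := ih (fun i => t i.castSucc) (fun i j hij => ht (Fin.castSucc_le_castSucc_iff.mpr hij))
      F hFa (fun i => U i.castSucc) ε (fun i τ hτ => hU i.castSucc τ (by
        rw [Fin.succ_castSucc]; exact hτ))
    have hlast := piece_integral_bound (t (Fin.last N).castSucc) (t (Fin.last (N + 1))) hll F hFb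
      (U (Fin.last N)) ε (fun τ hτ => hU (Fin.last N) τ (by simpa [Fin.succ_last] using hτ))
    have hsplit : ∫ τ in (t 0)..(t (Fin.last (N + 1))), F τ
        = (∫ τ in (t 0)..(t (Fin.last N).castSucc), F τ)
          + ∫ τ in (t (Fin.last N).castSucc)..(t (Fin.last (N + 1))), F τ := by
      rw [intervalIntegral.integral_add_adjacent_intervals]
      · apply ContinuousOn.intervalIntegrable; rwa [uIcc_of_le h0l]
      · apply ContinuousOn.intervalIntegrable; rwa [uIcc_of_le hll]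
    rw [Fin.sum_univ_castSucc, hsplit]
    have e1 : ∀ i : Fin N, (t i.castSucc.succ - t i.castSucc.castSucc) * U i.castSucc
        = (t i.succ.castSucc - t i.castSucc.castSucc) * U i.castSucc := by
      intro i; rw [Fin.succ_castSucc]
    simp only [Fin.succ_last] at *
    have hsum : ∑ i : Fin N, (t i.castSucc.succ - t i.castSucc.castSucc) * U i.castSucc
        = ∑ i : Fin N, (t i.succ.castSucc - t i.castSucc.castSucc) * U i.castSucc :=
      Finset.sum_congr rfl (fun i _ => e1 i)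
    rw [hsum]
    have habs := abs_add_le
      (∑ i : Fin N, (t i.succ.castSucc - t i.castSucc.castSucc) * U i.castSucc
        - ∫ τ in (t 0)..(t (Fin.last N).castSucc), F τ)
      ((t (Fin.last (N + 1)) - t (Fin.last N).castSucc) * U (Fin.last N)
        - ∫ τ in (t (Fin.last N).castSucc)..(t (Fin.last (N + 1))), F τ)
    have ih'' : |∑ i : Fin N, (t i.succ.castSucc - t i.castSucc.castSucc) * U i.castSucc
        - ∫ τ in (t 0)..(t (Fin.last N).castSucc), F τ| ≤ ε * (t (Fin.last N).castSucc - t 0) := by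
      simpa using ih'
    calc |∑ i : Fin N, (t i.succ.castSucc - t i.castSucc.castSucc) * U i.castSucc
          + (t (Fin.last (N + 1)) - t (Fin.last N).castSucc) * U (Fin.last N)
          - ((∫ τ in (t 0)..(t (Fin.last N).castSucc), F τ)
            + ∫ τ in (t (Fin.last N).castSucc)..(t (Fin.last (N + 1))), F τ)|
        = |(∑ i : Fin N, (t i.succ.castSucc - t i.castSucc.castSucc) * U i.castSucc
            - ∫ τ in (t 0)..(t (Fin.last N).castSucc), F τ)
          + ((t (Fin.last (N + 1)) - t (Fin.last N).castSucc) * U (Fin.last N)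
            - ∫ τ in (t (Fin.last N).castSucc)..(t (Fin.last (N + 1))), F τ)| := by
          congr 1; ring
      _ ≤ _ := habs
      _ ≤ ε * (t (Fin.last N).castSucc - t 0)
          + ε * (t (Fin.last (N + 1)) - t (Fin.last N).castSucc) := add_le_add ih'' hlast
      _ = ε * (t (Fin.last (N + 1)) - t 0) := by ring

/-- The elementary perturbation estimate. -/
lemma approx_lemma (Rb η' R₀ g₀ R' g' k : ℝ) (hη0 : 0 ≤ η') (hη1 : η' ≤ 1)
    (hR₀ : 0 ≤ R₀) (hR₀b : R₀ ≤ Rb) (hR' : 0 ≤ R')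
    (hRR : |R' - R₀| ≤ 2 * η') (hg' : 0 ≤ g') (hg'b : g' ≤ 1 / 2) (hgg : |g' - g₀| ≤ η')
    (hk0 : 0 ≤ k) (hk : k ≤ η') :
    |(1 + k) * R' ^ 2 * g' - R₀ ^ 2 * g₀| ≤ ((Rb + 2) ^ 2 / 2 + (2 * Rb + 2) + Rb ^ 2) * η' := by
  have hRb : 0 ≤ Rb := le_trans hR₀ hR₀b
  rw [abs_le] at hRR hgg
  have hR'b : R' ≤ Rb + 2 := by linarith
  have e : (1 + k) * R' ^ 2 * g' - R₀ ^ 2 * g₀
      = k * (R' ^ 2 * g') + (R' - R₀) * ((R' + R₀) * g') + R₀ ^ 2 * (g' - g₀) := by ring
  have b1 : |k * (R' ^ 2 * g')| ≤ η' * ((Rb + 2) ^ 2 / 2) := by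
    rw [abs_mul, abs_of_nonneg hk0, abs_of_nonneg (by positivity)]
    have : R' ^ 2 * g' ≤ (Rb + 2) ^ 2 * (1 / 2) := by
      apply mul_le_mul _ hg'b hg' (by positivity)
      exact pow_le_pow_left₀ hR' hR'b 2
    calc k * (R' ^ 2 * g') ≤ η' * ((Rb + 2) ^ 2 * (1 / 2)) :=
          mul_le_mul hk this (by positivity) hη0
      _ = η' * ((Rb + 2) ^ 2 / 2) := by ring
  have b2 : |(R' - R₀) * ((R' + R₀) * g')| ≤ (2 * η') * ((2 * Rb + 2) * (1 / 2)) := by
    rw [abs_mul, abs_of_nonneg (show 0 ≤ (R' + R₀) * g' by positivity)]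
    apply mul_le_mul (abs_le.mpr hRR) _ (by positivity) (by positivity)
    apply mul_le_mul (by linarith) hg'b hg' (by positivity)
  have b3 : |R₀ ^ 2 * (g' - g₀)| ≤ Rb ^ 2 * η' := by
    rw [abs_mul, abs_of_nonneg (sq_nonneg _)]
    apply mul_le_mul (pow_le_pow_left₀ hR₀ hR₀b 2) (abs_le.mpr hgg) (abs_nonneg _) (by positivity)
  rw [e]
  calc |k * (R' ^ 2 * g') + (R' - R₀) * ((R' + R₀) * g') + R₀ ^ 2 * (g' - g₀)|
      ≤ |k * (R' ^ 2 * g')| + |(R' - R₀) * ((R' + R₀) * g')| + |R₀ ^ 2 * (g' - g₀)| :=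
        abs_add_three _ _ _
    _ ≤ η' * ((Rb + 2) ^ 2 / 2) + (2 * η') * ((2 * Rb + 2) * (1 / 2)) + Rb ^ 2 * η' :=
        add_le_add (add_le_add b1 b2) b3
    _ = ((Rb + 2) ^ 2 / 2 + (2 * Rb + 2) + Rb ^ 2) * η' := by ring


/-- Every point between the first and the last partition point lies in some piece. -/
lemma exists_piece_succ : ∀ (N : ℕ) (t : Fin (N + 2) → ℝ) (τ : ℝ), t 0 ≤ τ →
    τ ≤ t (Fin.last (N + 1)) → ∃ i : Fin (N + 1), t i.castSucc ≤ τ ∧ τ ≤ t i.succ := by
  intro N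
  induction N with
  | zero =>
    intro t τ h0 h1
    exact ⟨0, by simpa using h0, by simpa using h1⟩
  | succ N ih =>
    intro t τ h0 h1
    by_cases hc : τ ≤ t (Fin.last (N + 1)).castSucc
    · obtain ⟨i, hi1, hi2⟩ := ih (fun i => t i.castSucc) τ (by simpa using h0) hc
      refine ⟨i.castSucc, hi1, ?_⟩
      rw [Fin.succ_castSucc]; exact hi2
    · refine ⟨Fin.last (N + 1), (not_le.mp hc).le, ?_⟩
      rw [Fin.succ_last]; exact h1

lemma exists_piece (N : ℕ) (t : Fin (N + 1) → ℝ) (τ : ℝ) (h0 : t 0 ≤ τ)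
    (h1 : τ ≤ t (Fin.last N)) (hN : N ≠ 0) : ∃ i : Fin N, t i.castSucc ≤ τ ∧ τ ≤ t i.succ := by
  obtain ⟨M, rfl⟩ := Nat.exists_eq_succ_of_ne_zero hN
  exact exists_piece_succ M t τ h0 h1

end Crest.Agent.S0328Lib
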