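import Crest.Agent.S0328Lib.Up
import Crest.Agent.S0328Lib.Analysis

/-!
# S0328: the radial sweep theorem, given the triangle area formula
-/

set_option autoImplicit false
open MeasureTheory Set
open scoped ENNReal

namespace Crest.Agent.S0328Lib

local notation "E3" => EuclideanSpace ℝ (Fin 3)

set_option maxHeartbeats 1600000 in
theorem main
    (hT : ∀ p q r : E3, μHE[2] (convexHull ℝ ({p, q, r} : Set E3)) =
      ENNReal.ofReal (Real.sqrt (‖q - p‖ ^ 2 * ‖r - p‖ ^ 2 - inner ℝ (q - p) (r - p) ^ 2) / 2))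
    (e a b p₀ : EuclideanSpace ℝ (Fin 3)) (he : ‖e‖ = 1)
    (ha : inner ℝ a e = 0) (hb : inner ℝ b e = 0)
    (hab : LinearIndependent ℝ ![a, b]) (L : ℝ) (hL : 0 < L) (α β : ℝ) (hαβ : α < β)
    (R : ℝ → ℝ) (hR : ContinuousOn R (Set.Icc α β)) (hR0 : ∀ t ∈ Set.Icc α β, 0 ≤ R t)
    (w : ℝ → EuclideanSpace ℝ (Fin 3)) (hw : ∀ t ∈ Set.Icc α β, inner ℝ (w t) e = 0)
    (lam : ℝ → ℝ) (hlam : ContinuousOn lam (Set.Icc α β))
    (hw' : ∀ t ∈ Set.Icc α β, HasDerivWithinAt w (lam t • (a + t • b)) (Set.Icc α β) t)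
    (η : ℝ) (hη : 0 < η) :
    ∃ δ : ℝ, 0 < δ ∧ ∀ (N : ℕ) (t : Fin (N + 1) → ℝ) (c : Fin N → ℝ),
      StrictMono t → t 0 = α → t (Fin.last N) = β →
      (∀ i : Fin N, t i.succ - t i.castSucc ≤ δ) →
      (∀ i : Fin N, t i.castSucc ≤ c i ∧ c i ≤ t i.succ) →
      (∃ (p q r : Fin N → EuclideanSpace ℝ (Fin 3)),
        (∀ i, inner ℝ (p i) (e + w (c i)) = 0 ∧ inner ℝ (q i) (e + w (c i)) = 0 ∧
          inner ℝ (r i) (e + w (c i)) = 0) ∧
        (∀ i, AffineIndependent ℝ ![p i, q i, r i]) ∧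
        {x : EuclideanSpace ℝ (Fin 3) | ∃ τ ∈ Set.Icc α β, ∃ ρ ∈ Set.Icc 0 (R τ), ∃ s : ℝ, abs s ≤ L ∧
            x = p₀ + ρ • (a + τ • b) + s • (e + w τ)} ⊆
          ⋃ i, {x : EuclideanSpace ℝ (Fin 3) | ∃ y ∈ convexHull ℝ {p i, q i, r i}, ∃ σ : ℝ,
            x = y + σ • (e + w (c i))} ∧
        abs ((∑ i, (μHE[2] (convexHull ℝ ({p i, q i, r i} : Set (EuclideanSpace ℝ (Fin 3))))).toReal) -
            Real.sqrt (‖a‖ ^ 2 * ‖b‖ ^ 2 - inner ℝ a b ^ 2) *
              ∫ τ in α..β, R τ ^ 2 / (2 * Real.sqrt (1 + ‖w τ‖ ^ 2))) ≤ η) ∧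
      abs ((∑ i : Fin N, (μHE[2] ((fun y => y - (inner ℝ y (e + w (c i)) / ‖e + w (c i)‖ ^ 2) • (e + w (c i))) ''
            {x : EuclideanSpace ℝ (Fin 3) | ∃ τ ∈ Set.Icc (t i.castSucc) (t i.succ), ∃ ρ ∈ Set.Icc 0 (R τ),
              ∃ s : ℝ, abs s ≤ L ∧ x = p₀ + ρ • (a + τ • b) + s • (e + w τ)})).toReal) -
          Real.sqrt (‖a‖ ^ 2 * ‖b‖ ^ 2 - inner ℝ a b ^ 2) *
            ∫ τ in α..β, R τ ^ 2 / (2 * Real.sqrt (1 + ‖w τ‖ ^ 2))) ≤ η := by
  classical
  set κ := Real.sqrt (‖a‖ ^ 2 * ‖b‖ ^ 2 - inner ℝ a b ^ 2) with hκ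
  have hκ0 : 0 ≤ κ := Real.sqrt_nonneg _
  have hI : IsCompact (Icc α β) := isCompact_Icc
  have hwcont : ContinuousOn w (Icc α β) := fun t ht => (hw' t ht).continuousWithinAt
  have hgcont := gfun_continuousOn w (Icc α β) hwcont
  have hβα : 0 < β - α := by linarith
  -- bounds
  obtain ⟨Rb₀, hRb₀⟩ := hI.exists_bound_of_continuousOn hR
  obtain ⟨Λ₀, hΛ₀⟩ := hI.exists_bound_of_continuousOn hlam
  set Rb := |Rb₀| with hRb
  have hRb0 : 0 ≤ Rb := abs_nonneg _
  have hRb' : ∀ t ∈ Icc α β, R t ≤ Rb := fun t ht => by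
    have h1 := hRb₀ t ht
    rw [Real.norm_eq_abs] at h1
    exact le_trans (le_abs_self _) (le_trans h1 (le_abs_self _))
  set Λ := |Λ₀| + 1 with hΛ
  have hΛpos : 0 < Λ := by positivity
  have hΛb : ∀ t ∈ Icc α β, |lam t| ≤ Λ := fun t ht => by
    have h1 := hΛ₀ t ht
    rw [Real.norm_eq_abs] at h1
    linarith [le_abs_self Λ₀]
  set C₀ := (Rb + 2) ^ 2 / 2 + (2 * Rb + 2) + Rb ^ 2 with hC₀
  have hC₀pos : 0 < C₀ := by positivity
  have hden : 0 < κ * C₀ * (β - α) + 1 := by positivity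
  set η' := min 1 (η / (κ * C₀ * (β - α) + 1)) with hη'
  have hη'pos : 0 < η' := lt_min one_pos (div_pos hη hden)
  have hη'1 : η' ≤ 1 := min_le_left _ _
  have hfinal : κ * (C₀ * η' * (β - α)) ≤ η := by
    have h1 : η' ≤ η / (κ * C₀ * (β - α) + 1) := min_le_right _ _
    have hnn : 0 ≤ κ * C₀ * (β - α) := by positivity
    have h2 : κ * C₀ * (β - α) * η' ≤ κ * C₀ * (β - α) * (η / (κ * C₀ * (β - α) + 1)) :=
      mul_le_mul_of_nonneg_left h1 hnn
    have h3 : κ * C₀ * (β - α) * (η / (κ * C₀ * (β - α) + 1)) ≤ η := by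
      rw [mul_div_assoc', div_le_iff₀ hden]
      nlinarith
    calc κ * (C₀ * η' * (β - α)) = κ * C₀ * (β - α) * η' := by ring
      _ ≤ _ := h2
      _ ≤ η := h3
  -- uniform continuity
  obtain ⟨δR, hδR, hucR⟩ := (Metric.uniformContinuousOn_iff_le.mp
    (hI.uniformContinuousOn_of_continuous hR)) η' hη'pos
  obtain ⟨δg, hδg, hucg⟩ := (Metric.uniformContinuousOn_iff_le.mp
    (hI.uniformContinuousOn_of_continuous hgcont)) η' hη'pos
  set K := 1 + 4 / η' with hK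
  have hK1 : 1 < K := by
    have : 0 < 4 / η' := by positivity
    rw [hK]; linarith
  have hKk : 4 / (K - 1) = η' := by
    have h1 : K - 1 = 4 / η' := by rw [hK]; ring
    rw [h1, div_div_eq_mul_div, mul_comm, mul_div_assoc, div_self (by norm_num), mul_one]
  have hKLΛ : 0 < (K + 1) * L * Λ := by positivity
  set δ := min (min δR δg) (η' / ((K + 1) * L * Λ)) with hδ
  have hδpos : 0 < δ := lt_min (lt_min hδR hδg) (div_pos hη'pos hKLΛ)
  refine ⟨δ, hδpos, ?_⟩
  intro N t c hmono h0 hlast hmesh htag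
  have hN : N ≠ 0 := by
    rintro rfl
    have h1 : t 0 = t (Fin.last 0) := rfl
    rw [h0, hlast] at h1
    exact absurd h1 hαβ.ne
  -- partition facts
  have hlo : ∀ i : Fin N, α ≤ t i.castSucc := fun i => by
    rw [← h0]; exact hmono.monotone (Fin.zero_le _)
  have hhi : ∀ i : Fin N, t i.succ ≤ β := fun i => by
    rw [← hlast]; exact hmono.monotone (Fin.le_last _)
  have hlt : ∀ i : Fin N, t i.castSucc < t i.succ := fun i => hmono Fin.castSucc_lt_succ
  have hsubI : ∀ i : Fin N, Icc (t i.castSucc) (t i.succ) ⊆ Icc α β := fun i =>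
    Icc_subset_Icc (hlo i) (hhi i)
  have hcI : ∀ i : Fin N, c i ∈ Icc α β := fun i => hsubI i ⟨(htag i).1, (htag i).2⟩
  have hmeshR : ∀ i : Fin N, t i.succ - t i.castSucc ≤ δR := fun i =>
    le_trans (hmesh i) (le_trans (min_le_left _ _) (min_le_left _ _))
  have hmeshg : ∀ i : Fin N, t i.succ - t i.castSucc ≤ δg := fun i =>
    le_trans (hmesh i) (le_trans (min_le_left _ _) (min_le_right _ _))
  have hmeshK : ∀ i : Fin N, (K + 1) * L * Λ * (t i.succ - t i.castSucc) ≤ η' := fun i => by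
    have h1 : t i.succ - t i.castSucc ≤ η' / ((K + 1) * L * Λ) :=
      le_trans (hmesh i) (min_le_right _ _)
    rw [le_div_iff₀ hKLΛ] at h1
    linarith
  -- distance within a piece
  have hdist : ∀ i : Fin N, ∀ x ∈ Icc (t i.castSucc) (t i.succ),
      ∀ y ∈ Icc (t i.castSucc) (t i.succ), dist x y ≤ t i.succ - t i.castSucc := by
    intro i x hx y hy
    rw [Real.dist_eq, abs_le]
    constructor <;> linarith [hx.1, hx.2, hy.1, hy.2]
  -- extremal points
  have hmax : ∀ i : Fin N, ∃ τ ∈ Icc (t i.castSucc) (t i.succ),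
      IsMaxOn R (Icc (t i.castSucc) (t i.succ)) τ := fun i =>
    isCompact_Icc.exists_isMaxOn (nonempty_Icc.mpr (hlt i).le) (hR.mono (hsubI i))
  have hmin : ∀ i : Fin N, ∃ τ ∈ Icc (t i.castSucc) (t i.succ),
      IsMinOn R (Icc (t i.castSucc) (t i.succ)) τ := fun i =>
    isCompact_Icc.exists_isMinOn (nonempty_Icc.mpr (hlt i).le) (hR.mono (hsubI i))
  choose τM hτM hτMmax using hmax
  choose τm hτm hτmmin using hmin
  -- the integrand
  set F : ℝ → ℝ := fun τ => R τ ^ 2 * gfun w τ with hF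
  have hFeq : (∫ τ in α..β, R τ ^ 2 / (2 * Real.sqrt (1 + ‖w τ‖ ^ 2))) = ∫ τ in α..β, F τ := by
    congr 1
    funext τ
    simp only [hF, gfun]
    ring
  have hFcont : ContinuousOn F (Icc (t 0) (t (Fin.last N))) := by
    rw [h0, hlast]; exact (hR.pow 2).mul hgcont
  -- upper and lower tags
  set Uu : Fin N → ℝ := fun i => (1 + 4 / (K - 1)) *
    (R (τM i) + (K + 1) * L * Λ * (t i.succ - t i.castSucc)) ^ 2 * gfun w (c i) with hUu
  set Ul : Fin N → ℝ := fun i => R (τm i) ^ 2 * gfun w (c i) with hUl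
  have hUu_bound : ∀ i : Fin N, ∀ τ ∈ Icc (t i.castSucc) (t i.succ), |Uu i - F τ| ≤ C₀ * η' := by
    intro i τ hτ
    have hτI := hsubI i hτ
    have hMI := hsubI i (hτM i)
    have hΔ : 0 < t i.succ - t i.castSucc := by linarith [hlt i]
    have h1 : |R (τM i) - R τ| ≤ η' := by
      have := hucR _ hMI _ hτI (le_trans (hdist i _ (hτM i) _ hτ) (hmeshR i))
      rwa [Real.dist_eq] at this
    have h2 : |gfun w (c i) - gfun w τ| ≤ η' := by
      have := hucg _ (hcI i) _ hτI (le_trans (hdist i _ ⟨(htag i).1, (htag i).2⟩ _ hτ) (hmeshg i))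
      rwa [Real.dist_eq] at this
    have h3 : 0 ≤ (K + 1) * L * Λ * (t i.succ - t i.castSucc) := by positivity
    have h4 := hmeshK i
    have hR0M := hR0 _ hMI
    simp only [hUu, hF]
    rw [hKk]
    apply approx_lemma Rb η' (R τ) (gfun w τ) _ (gfun w (c i)) η' hη'pos.le hη'1 (hR0 _ hτI)
      (hRb' _ hτI) (by linarith) _ (gfun_nonneg _ _) (gfun_le_half _ _) h2 hη'pos.le le_rfl
    rw [abs_le] at h1 ⊢
    constructor <;> linarith [h1.1, h1.2]
  have hUl_bound : ∀ i : Fin N, ∀ τ ∈ Icc (t i.castSucc) (t i.succ), |Ul i - F τ| ≤ C₀ * η' := by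
    intro i τ hτ
    have hτI := hsubI i hτ
    have hmI := hsubI i (hτm i)
    have h1 : |R (τm i) - R τ| ≤ η' := by
      have := hucR _ hmI _ hτI (le_trans (hdist i _ (hτm i) _ hτ) (hmeshR i))
      rwa [Real.dist_eq] at this
    have h2 : |gfun w (c i) - gfun w τ| ≤ η' := by
      have := hucg _ (hcI i) _ hτI (le_trans (hdist i _ ⟨(htag i).1, (htag i).2⟩ _ hτ) (hmeshg i))
      rwa [Real.dist_eq] at this
    have hR0m := hR0 _ hmI
    have key := approx_lemma Rb η' (R τ) (gfun w τ) (R (τm i)) (gfun w (c i)) 0 hη'pos.le hη'1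
      (hR0 _ hτI) (hRb' _ hτI) hR0m (by linarith) (gfun_nonneg _ _) (gfun_le_half _ _) h2 le_rfl
      hη'pos.le
    simp only [hUl, hF]
    simpa using key
  have hsumU := partition_sum_sub_integral_le N t hmono.monotone F hFcont Uu (C₀ * η') hUu_bound
  have hsumL := partition_sum_sub_integral_le N t hmono.monotone F hFcont Ul (C₀ * η') hUl_bound
  rw [h0, hlast] at hsumU hsumL
  have hupper : |κ * ∑ i, (t i.succ - t i.castSucc) * Uu i - κ * ∫ τ in α..β, F τ| ≤ η := by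
    rw [← mul_sub, abs_mul, abs_of_nonneg hκ0]
    exact le_trans (mul_le_mul_of_nonneg_left hsumU hκ0) hfinal
  have hlower : |κ * ∑ i, (t i.succ - t i.castSucc) * Ul i - κ * ∫ τ in α..β, F τ| ≤ η := by
    rw [← mul_sub, abs_mul, abs_of_nonneg hκ0]
    exact le_trans (mul_le_mul_of_nonneg_left hsumL hκ0) hfinal
  -- the triangles
  set p : Fin N → E3 := fun i => upP e a b p₀ w L Λ K (t i.castSucc) (t i.succ) (c i) with hp
  set q : Fin N → E3 := fun i =>
    upQ e a b p₀ w L Λ K (R (τM i)) (t i.castSucc) (t i.succ) (c i) with hq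
  set r : Fin N → E3 := fun i =>
    upR e a b p₀ w L Λ K (R (τM i)) (t i.castSucc) (t i.succ) (c i) with hr
  have hUu0 : ∀ i : Fin N, 0 ≤ κ * ((t i.succ - t i.castSucc) * Uu i) := by
    intro i
    have hΔ : 0 < t i.succ - t i.castSucc := by linarith [hlt i]
    have hK1' : 0 < K - 1 := by linarith
    have hg := gfun_nonneg w (c i)
    simp only [hUu]
    positivity
  have harea : ∀ i : Fin N, μHE[2] (convexHull ℝ ({p i, q i, r i} : Set E3)) =
      ENNReal.ofReal (κ * ((t i.succ - t i.castSucc) * Uu i)) := fun i =>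
    up_area e a b p₀ he ha hb w L Λ K (R (τM i)) (t i.castSucc) (t i.succ) (c i) (hw _ (hcI i))
      hT hK1 (hlt i)
  have hmem : ∀ i : Fin N, ∀ x ∈ pieceSet e a b p₀ L R w (t i.castSucc) (t i.succ),
      projL (e + w (c i)) x ∈ convexHull ℝ ({p i, q i, r i} : Set E3) := fun i x hx =>
    up_mem e a b p₀ he w L Λ K (R (τM i)) (t i.castSucc) (t i.succ) (c i) (hw _ (hcI i)) R α β lam
      hlam hw' hΛb hΛpos hL hK1 (hlt i) (hlo i) (hhi i) (htag i).1 (htag i).2
      (fun τ hτ => hτMmax i hτ) (hR0 _ (hsubI i (hτM i))) x hx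
  have hsumarea : ∑ i, (μHE[2] (convexHull ℝ ({p i, q i, r i} : Set E3))).toReal
      = κ * ∑ i, (t i.succ - t i.castSucc) * Uu i := by
    rw [Finset.mul_sum]
    apply Finset.sum_congr rfl
    intro i _
    rw [harea i, ENNReal.toReal_ofReal (hUu0 i)]
  constructor
  · refine ⟨p, q, r, ?_, ?_, ?_, ?_⟩
    · intro i
      exact ⟨upP_inner e a b p₀ he w L Λ K _ _ (c i) (hw _ (hcI i)),
        upQ_inner e a b p₀ he w L Λ K _ _ _ (c i) (hw _ (hcI i)),
        upR_inner e a b p₀ he w L Λ K _ _ _ (c i) (hw _ (hcI i))⟩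
    · intro i
      exact up_affineIndependent e a b p₀ he ha hb w L Λ K (R (τM i)) (t i.castSucc) (t i.succ)
        (c i) (hw _ (hcI i)) hab hL hΛpos hK1 (hlt i) (hR0 _ (hsubI i (hτM i)))
    · intro x hx
      obtain ⟨τ, hτ, ρ, hρ, s, hs, rfl⟩ := hx
      obtain ⟨i, hi1, hi2⟩ := exists_piece N t τ (by rw [h0]; exact hτ.1)
        (by rw [hlast]; exact hτ.2) hN
      rw [mem_iUnion]
      exact ⟨i, projL (e + w (c i)) _, hmem i _ ⟨τ, ⟨hi1, hi2⟩, ρ, hρ, s, hs, rfl⟩, _,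
        eq_projL_add _ _⟩
    · rw [hsumarea, hFeq]
      exact hupper
  · have hS : ∀ i : Fin N,
        (fun y => y - (inner ℝ y (e + w (c i)) / ‖e + w (c i)‖ ^ 2) • (e + w (c i))) ''
          {x : EuclideanSpace ℝ (Fin 3) | ∃ τ ∈ Set.Icc (t i.castSucc) (t i.succ),
            ∃ ρ ∈ Set.Icc 0 (R τ), ∃ s : ℝ, abs s ≤ L ∧ x = p₀ + ρ • (a + τ • b) + s • (e + w τ)}
        = projL (e + w (c i)) '' pieceSet e a b p₀ L R w (t i.castSucc) (t i.succ) := fun i => rfl
    simp only [hS]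
    have hsubT : ∀ i : Fin N, projL (e + w (c i)) '' pieceSet e a b p₀ L R w (t i.castSucc) (t i.succ)
        ⊆ convexHull ℝ ({p i, q i, r i} : Set E3) := by
      rintro i _ ⟨x, hx, rfl⟩
      exact hmem i x hx
    have hup_i : ∀ i : Fin N,
        (μHE[2] (projL (e + w (c i)) '' pieceSet e a b p₀ L R w (t i.castSucc) (t i.succ))).toReal
          ≤ κ * ((t i.succ - t i.castSucc) * Uu i) := by
      intro i
      have h1 := measure_mono (μ := (μHE[2] : Measure E3)) (hsubT i)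
      rw [harea i] at h1
      exact ENNReal.toReal_le_of_le_ofReal (hUu0 i) h1
    have hlo_i : ∀ i : Fin N, κ * ((t i.succ - t i.castSucc) * Ul i) ≤
        (μHE[2] (projL (e + w (c i)) '' pieceSet e a b p₀ L R w (t i.castSucc) (t i.succ))).toReal := by
      intro i
      have h1 := low_area e a b p₀ he ha hb w L (t i.castSucc) (t i.succ) (c i) (hw _ (hcI i)) hT R
        hL.le (hlt i).le (R (τm i)) (hR0 _ (hsubI i (hτm i))) (fun τ hτ => hτmmin i hτ)
      have hfin : μHE[2] (projL (e + w (c i)) '' pieceSet e a b p₀ L R w (t i.castSucc) (t i.succ))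
          ≠ ⊤ := by
        have h2 := measure_mono (μ := (μHE[2] : Measure E3)) (hsubT i)
        rw [harea i] at h2
        exact ne_top_of_le_ne_top ENNReal.ofReal_ne_top h2
      exact (ENNReal.ofReal_le_iff_le_toReal hfin).mp h1
    have hsum_hi := Finset.sum_le_sum (fun i (_ : i ∈ Finset.univ) => hup_i i)
    have hsum_lo := Finset.sum_le_sum (fun i (_ : i ∈ Finset.univ) => hlo_i i)
    rw [← Finset.mul_sum] at hsum_hi hsum_lo
    rw [hFeq, abs_le]
    rw [abs_le] at hupper hlower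
    constructor <;> linarith [hupper.1, hupper.2, hlower.1, hlower.2]

end Crest.Agent.S0328Lib
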