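import Mathlib

/-!
# S0328 helper library: elementary geometry in `EuclideanSpace ℝ (Fin 3)`

* coordinate formulas for inner products,
* the orthogonal projection `projL d` along a vector `d`,
* Gram determinant identities used to compute areas of projected planar triangles.
-/

set_option autoImplicit false
open MeasureTheory
open scoped ENNReal

namespace Crest.Agent.S0328Lib

/-- `EuclideanSpace ℝ (Fin 3)` -/
local notation "E3" => EuclideanSpace ℝ (Fin 3)

lemma inner3 (x y : E3) : inner ℝ x y = x 0 * y 0 + x 1 * y 1 + x 2 * y 2 := by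
  simp [PiLp.inner_apply, Fin.sum_univ_three]
  ring

lemma normsq3 (x : E3) : ‖x‖ ^ 2 = x 0 * x 0 + x 1 * x 1 + x 2 * x 2 := by
  rw [← real_inner_self_eq_norm_sq, inner3]

/-- Three vectors orthogonal to a unit vector of `ℝ³` have vanishing Gram determinant. -/
lemma gram3_zero (u v w e : E3) (he : ‖e‖ = 1) (hu : inner ℝ u e = 0) (hv : inner ℝ v e = 0)
    (hw : inner ℝ w e = 0) :
    ‖u‖ ^ 2 * ‖v‖ ^ 2 * ‖w‖ ^ 2 + 2 * inner ℝ u v * inner ℝ v w * inner ℝ u w
      - ‖u‖ ^ 2 * inner ℝ v w ^ 2 - ‖v‖ ^ 2 * inner ℝ u w ^ 2 - ‖w‖ ^ 2 * inner ℝ u v ^ 2 = 0 := by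
  have he2 : ‖e‖ ^ 2 = 1 := by rw [he]; norm_num
  rw [normsq3] at he2
  simp only [normsq3, inner3] at *
  set u0 := u 0; set u1 := u 1; set u2 := u 2
  set v0 := v 0; set v1 := v 1; set v2 := v 2
  set w0 := w 0; set w1 := w 1; set w2 := w 2
  set e0 := e 0; set e1 := e 1; set e2 := e 2
  have h0 : (u0 * (v1 * w2 - v2 * w1) - u1 * (v0 * w2 - v2 * w0) + u2 * (v0 * w1 - v1 * w0)) * e0
      = 0 := by
    linear_combination (v1 * w2 - v2 * w1) * hu - (u1 * w2 - u2 * w1) * hv
      + (u1 * v2 - u2 * v1) * hw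
  have h1 : (u0 * (v1 * w2 - v2 * w1) - u1 * (v0 * w2 - v2 * w0) + u2 * (v0 * w1 - v1 * w0)) * e1
      = 0 := by
    linear_combination -(v0 * w2 - v2 * w0) * hu + (u0 * w2 - u2 * w0) * hv
      - (u0 * v2 - u2 * v0) * hw
  have h2 : (u0 * (v1 * w2 - v2 * w1) - u1 * (v0 * w2 - v2 * w0) + u2 * (v0 * w1 - v1 * w0)) * e2
      = 0 := by
    linear_combination (v0 * w1 - v1 * w0) * hu - (u0 * w1 - u1 * w0) * hv
      + (u0 * v1 - u1 * v0) * hw
  have hD : (u0 * (v1 * w2 - v2 * w1) - u1 * (v0 * w2 - v2 * w0) + u2 * (v0 * w1 - v1 * w0)) ^ 2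
      = 0 := by
    have : (u0 * (v1 * w2 - v2 * w1) - u1 * (v0 * w2 - v2 * w0) + u2 * (v0 * w1 - v1 * w0)) ^ 2
        = (u0 * (v1 * w2 - v2 * w1) - u1 * (v0 * w2 - v2 * w0) + u2 * (v0 * w1 - v1 * w0)) ^ 2
          * (e0 * e0 + e1 * e1 + e2 * e2) := by
      rw [he2, mul_one]
    rw [this]
    linear_combination
      ((u0 * (v1 * w2 - v2 * w1) - u1 * (v0 * w2 - v2 * w0) + u2 * (v0 * w1 - v1 * w0)) * e0) * h0
      + ((u0 * (v1 * w2 - v2 * w1) - u1 * (v0 * w2 - v2 * w0) + u2 * (v0 * w1 - v1 * w0)) * e1) * h1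
      + ((u0 * (v1 * w2 - v2 * w1) - u1 * (v0 * w2 - v2 * w0) + u2 * (v0 * w1 - v1 * w0)) * e2) * h2
  linear_combination hD

/-- The orthogonal projection along `d` (onto `d^⊥` when `d ≠ 0`), as a linear map. -/
noncomputable def projL (d : E3) : E3 →ₗ[ℝ] E3 where
  toFun y := y - (inner ℝ y d / ‖d‖ ^ 2) • d
  map_add' x y := by
    simp only [inner_add_left, add_div, add_smul]
    abel
  map_smul' c x := by
    simp only [inner_smul_left, RingHom.id_apply, smul_sub, mul_div_assoc, mul_smul]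
    simp

lemma projL_apply (d y : E3) : projL d y = y - (inner ℝ y d / ‖d‖ ^ 2) • d := rfl

lemma inner_projL_self (d y : E3) (hd : d ≠ 0) : inner ℝ (projL d y) d = 0 := by
  have hd2 : ‖d‖ ^ 2 ≠ 0 := by positivity
  rw [projL_apply, inner_sub_left, inner_smul_left, real_inner_self_eq_norm_sq]
  simp only [conj_trivial]
  field_simp
  ring

lemma inner_projL_projL (d u v : E3) (hd : d ≠ 0) :
    inner ℝ (projL d u) (projL d v) = inner ℝ u v - inner ℝ u d * inner ℝ v d / ‖d‖ ^ 2 := by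
  have hd2 : ‖d‖ ^ 2 ≠ 0 := by positivity
  have h1 : inner ℝ (projL d u) (projL d v) = inner ℝ (projL d u) v := by
    conv_lhs => rw [projL_apply d v]
    rw [inner_sub_right, inner_smul_right, inner_projL_self d u hd]
    ring
  rw [h1, projL_apply, inner_sub_left, inner_smul_left, real_inner_comm v d]
  simp only [conj_trivial]
  ring

/-- `x = projL d x + (multiple of d)`. -/
lemma eq_projL_add (d x : E3) : x = projL d x + (inner ℝ x d / ‖d‖ ^ 2) • d := by
  rw [projL_apply]; abel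

lemma projL_add_smul_self (d y : E3) (s : ℝ) (hd : d ≠ 0) : projL d (y + s • d) = projL d y := by
  have hd2 : ‖d‖ ^ 2 ≠ 0 := by positivity
  rw [map_add, map_smul]
  have : projL d d = 0 := by
    rw [projL_apply, real_inner_self_eq_norm_sq, div_self hd2, one_smul, sub_self]
  rw [this, smul_zero, add_zero]

section Gram

variable (e w : E3) (he : ‖e‖ = 1) (hw : inner ℝ w e = 0)

include he hw in
lemma normsq_e_add : ‖e + w‖ ^ 2 = 1 + ‖w‖ ^ 2 := by
  rw [← real_inner_self_eq_norm_sq, inner_add_left, inner_add_right, inner_add_right,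
    real_inner_self_eq_norm_sq, real_inner_self_eq_norm_sq, hw, real_inner_comm, hw, he]
  ring

include he hw in
lemma e_add_ne_zero : e + w ≠ 0 := by
  intro h
  have := normsq_e_add e w he hw
  rw [h, norm_zero] at this
  nlinarith [sq_nonneg ‖w‖]

include he hw in
/-- Gram determinant of the projections of two vectors of `e^⊥` along `e + w`. -/
lemma gram_projL (u v : E3) (hu : inner ℝ u e = 0) (hv : inner ℝ v e = 0) :
    ‖projL (e + w) u‖ ^ 2 * ‖projL (e + w) v‖ ^ 2 - inner ℝ (projL (e + w) u) (projL (e + w) v) ^ 2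
      = (‖u‖ ^ 2 * ‖v‖ ^ 2 - inner ℝ u v ^ 2) / (1 + ‖w‖ ^ 2) := by
  have hd := e_add_ne_zero e w he hw
  have hD := normsq_e_add e w he hw
  have hDpos : (0 : ℝ) < 1 + ‖w‖ ^ 2 := by positivity
  rw [← real_inner_self_eq_norm_sq, ← real_inner_self_eq_norm_sq, inner_projL_projL _ _ _ hd,
    inner_projL_projL _ _ _ hd, inner_projL_projL _ _ _ hd, hD, real_inner_self_eq_norm_sq,
    real_inner_self_eq_norm_sq]
  have hud : inner ℝ u (e + w) = inner ℝ u w := by rw [inner_add_right, hu, zero_add]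
  have hvd : inner ℝ v (e + w) = inner ℝ v w := by rw [inner_add_right, hv, zero_add]
  rw [hud, hvd]
  have hG := gram3_zero u v w e he hu hv hw
  field_simp
  linear_combination (1 + ‖w‖ ^ 2) * hG

end Gram

/-- Gram determinant of two vectors given in coordinates with respect to `a`, `b`. -/
lemma gram_coord (a b : E3) (u₁ u₂ v₁ v₂ : ℝ) :
    ‖u₁ • a + u₂ • b‖ ^ 2 * ‖v₁ • a + v₂ • b‖ ^ 2 - inner ℝ (u₁ • a + u₂ • b) (v₁ • a + v₂ • b) ^ 2
      = (u₁ * v₂ - u₂ * v₁) ^ 2 * (‖a‖ ^ 2 * ‖b‖ ^ 2 - inner ℝ a b ^ 2) := by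
  simp only [← real_inner_self_eq_norm_sq, inner_add_left, inner_add_right, inner_smul_left,
    inner_smul_right, conj_trivial, real_inner_comm a b]
  ring

end Crest.Agent.S0328Lib
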