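import Crest.Agent.S0328Lib.Geom

/-!
# S0328 helper library: one piece of the radial sweep

* `w_decomp`: FTC decomposition of the increment of `w`,
* `cover_core`: barycentric coordinates of a point of the piece in the covering triangle,
* `mem_convexHull_triple`.
-/

set_option autoImplicit false
open MeasureTheory Set
open scoped ENNReal

namespace Crest.Agent.S0328Lib

local notation "E3" => EuclideanSpace ℝ (Fin 3)

lemma mem_convexHull_triple {E : Type*} [AddCommGroup E] [Module ℝ E] (y₀ y₁ y₂ : E) (l₁ l₂ : ℝ)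
    (h1 : 0 ≤ l₁) (h2 : 0 ≤ l₂) (h : l₁ + l₂ ≤ 1) :
    y₀ + l₁ • (y₁ - y₀) + l₂ • (y₂ - y₀) ∈ convexHull ℝ ({y₀, y₁, y₂} : Set E) := by
  have hc := convex_convexHull ℝ ({y₀, y₁, y₂} : Set E)
  have m0 : y₀ ∈ convexHull ℝ ({y₀, y₁, y₂} : Set E) := subset_convexHull ℝ _ (by simp)
  have m1 : y₁ ∈ convexHull ℝ ({y₀, y₁, y₂} : Set E) := subset_convexHull ℝ _ (by simp)
  have m2 : y₂ ∈ convexHull ℝ ({y₀, y₁, y₂} : Set E) := subset_convexHull ℝ _ (by simp)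
  have key : y₀ + l₁ • (y₁ - y₀) + l₂ • (y₂ - y₀)
      = ∑ i : Fin 3, (![1 - l₁ - l₂, l₁, l₂] i) • (![y₀, y₁, y₂] i) := by
    simp [Fin.sum_univ_three]
    module
  rw [key]
  apply hc.sum_mem
  · intro i _
    fin_cases i <;> simp <;> linarith
  · simp [Fin.sum_univ_three]
    ring
  · intro i _
    fin_cases i <;> simp [m0, m1, m2]

/-- The real-number core of the covering argument. -/
lemma cover_core (L Λ K t₁ t₂ c τ ρ s m ζ X : ℝ) (hL : 0 < L) (hΛ : 0 ≤ Λ) (hK : 1 < K)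
    (ht : t₁ < t₂) (hc1 : t₁ ≤ c) (hc2 : c ≤ t₂) (hτ1 : t₁ ≤ τ) (hτ2 : τ ≤ t₂)
    (hρ0 : 0 ≤ ρ) (hρX : ρ + L * Λ * (t₂ - t₁) ≤ X) (hs : |s| ≤ L)
    (hm : |m| ≤ Λ * |τ - c|) (hζ : |ζ| ≤ Λ * |τ - c| * |τ - c|)
    (hXμ : 0 < X + K * L * Λ * (t₂ - t₁)) :
    ∃ l₁ l₂ : ℝ, 0 ≤ l₁ ∧ 0 ≤ l₂ ∧ l₁ + l₂ ≤ 1 ∧
      (ρ + s * m) + K * L * Λ * (t₂ - t₁)
        = (X + K * L * Λ * (t₂ - t₁)) * (l₁ + l₂) ∧
      (τ * (ρ + s * m) + s * ζ) + K * L * Λ * (t₂ - t₁) * c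
        = (X + K * L * Λ * (t₂ - t₁)) *
          (l₁ * (t₁ - 2 * (t₂ - t₁) / (K - 1)) + l₂ * (t₂ + 2 * (t₂ - t₁) / (K - 1))) := by
  set Δ := t₂ - t₁ with hΔ
  have hΔpos : 0 < Δ := by rw [hΔ]; linarith
  set μ := K * L * Λ * Δ with hμ
  set θ := 2 * Δ / (K - 1) with hθ
  have hK1 : 0 < K - 1 := by linarith
  have hθpos : 0 < θ := by rw [hθ]; positivity
  have hθK : θ * (K - 1) = 2 * Δ := by rw [hθ]; field_simp
  set A₀ := L * Λ * Δ with hA₀
  have hA₀nn : 0 ≤ A₀ := by rw [hA₀]; positivity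
  have hμA : μ = K * A₀ := by rw [hμ, hA₀]; ring
  have hτc : |τ - c| ≤ Δ := by rw [abs_le, hΔ]; constructor <;> linarith
  have hτc0 : 0 ≤ |τ - c| := abs_nonneg _
  -- bounds on s*m and s*ζ
  have hsm : |s * m| ≤ A₀ := by
    rw [abs_mul, hA₀]
    calc |s| * |m| ≤ L * (Λ * |τ - c|) := mul_le_mul hs hm (abs_nonneg _) hL.le
      _ ≤ L * (Λ * Δ) := by gcongr
      _ = L * Λ * Δ := by ring
  have hsζ : |s * ζ| ≤ A₀ * Δ := by
    rw [abs_mul, hA₀]
    calc |s| * |ζ| ≤ L * (Λ * |τ - c| * |τ - c|) := mul_le_mul hs hζ (abs_nonneg _) hL.le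
      _ ≤ L * (Λ * Δ * Δ) := by gcongr
      _ = L * Λ * Δ * Δ := by ring
  rw [abs_le] at hsm hsζ
  set x₁ := ρ + s * m with hx₁
  set x₂ := τ * x₁ + s * ζ with hx₂
  have hx₁lo : -A₀ ≤ x₁ := by rw [hx₁]; linarith [hsm.1]
  have hx₁hi : x₁ ≤ X := by rw [hx₁]; linarith [hsm.2]
  have hx₁μ : (K - 1) * A₀ ≤ x₁ + μ := by rw [hμA]; linarith
  have hx₁μ0 : 0 ≤ x₁ + μ := le_trans (by positivity) hx₁μ
  have h4 : 2 * A₀ * Δ ≤ θ * (x₁ + μ) := by
    calc 2 * A₀ * Δ = θ * ((K - 1) * A₀) := by linear_combination (-A₀) * hθK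
      _ ≤ θ * (x₁ + μ) := by gcongr
  have hμnn : 0 ≤ μ := by rw [hμA]; positivity
  set W := Δ + 2 * θ with hW
  have hWpos : 0 < W := by rw [hW]; linarith
  -- numerators
  have hN1 : 0 ≤ (x₁ + μ) * (t₂ + θ) - (x₂ + μ * c) := by
    have e1 : (x₁ + μ) * (t₂ + θ) - (x₂ + μ * c)
        = (x₁ + A₀) * (t₂ - τ) - A₀ * (t₂ - τ) + μ * (t₂ - c) + θ * (x₁ + μ) - s * ζ := by
      rw [hx₂]; ring
    rw [e1]
    have a1 : 0 ≤ (x₁ + A₀) * (t₂ - τ) := mul_nonneg (by linarith) (by linarith)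
    have a2 : A₀ * (t₂ - τ) ≤ A₀ * Δ := by
      apply mul_le_mul_of_nonneg_left _ hA₀nn
      rw [hΔ]; linarith
    have a3 : 0 ≤ μ * (t₂ - c) := mul_nonneg hμnn (by linarith)
    linarith [hsζ.2]
  have hN2 : 0 ≤ (x₂ + μ * c) - (x₁ + μ) * (t₁ - θ) := by
    have e1 : (x₂ + μ * c) - (x₁ + μ) * (t₁ - θ)
        = (x₁ + A₀) * (τ - t₁) - A₀ * (τ - t₁) + μ * (c - t₁) + θ * (x₁ + μ) + s * ζ := by
      rw [hx₂]; ring
    rw [e1]
    have a1 : 0 ≤ (x₁ + A₀) * (τ - t₁) := mul_nonneg (by linarith) (by linarith)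
    have a2 : A₀ * (τ - t₁) ≤ A₀ * Δ := by
      apply mul_le_mul_of_nonneg_left _ hA₀nn
      rw [hΔ]; linarith
    have a3 : 0 ≤ μ * (c - t₁) := mul_nonneg hμnn (by linarith)
    linarith [hsζ.1]
  have hden : 0 < (X + μ) * W := mul_pos hXμ hWpos
  have hXμne : X + μ ≠ 0 := hXμ.ne'
  have hWne : W ≠ 0 := hWpos.ne'
  have hWeq : W = (t₂ + θ) - (t₁ - θ) := by rw [hW, hΔ]; ring
  refine ⟨((x₁ + μ) * (t₂ + θ) - (x₂ + μ * c)) / ((X + μ) * W),
    ((x₂ + μ * c) - (x₁ + μ) * (t₁ - θ)) / ((X + μ) * W), div_nonneg hN1 hden.le,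
    div_nonneg hN2 hden.le, ?_, ?_, ?_⟩
  · rw [← add_div, div_le_one hden]
    have : (x₁ + μ) * (t₂ + θ) - (x₂ + μ * c) + ((x₂ + μ * c) - (x₁ + μ) * (t₁ - θ))
        = (x₁ + μ) * W := by rw [hWeq]; ring
    rw [this]
    apply mul_le_mul_of_nonneg_right _ hWpos.le
    linarith
  · rw [← add_div]
    have : (x₁ + μ) * (t₂ + θ) - (x₂ + μ * c) + ((x₂ + μ * c) - (x₁ + μ) * (t₁ - θ))
        = (x₁ + μ) * W := by rw [hWeq]; ring
    rw [this]
    field_simp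
  · have : ((x₁ + μ) * (t₂ + θ) - (x₂ + μ * c)) / ((X + μ) * W) * (t₁ - θ)
        + ((x₂ + μ * c) - (x₁ + μ) * (t₁ - θ)) / ((X + μ) * W) * (t₂ + θ)
        = (x₂ + μ * c) * W / ((X + μ) * W) := by
      rw [hWeq]; field_simp; ring
    rw [this]
    field_simp


/-- FTC decomposition of the increment of `w`. -/
lemma w_decomp (a b : E3) (α β : ℝ) (w : ℝ → E3) (lam : ℝ → ℝ)
    (hlam : ContinuousOn lam (Icc α β))
    (hw' : ∀ t ∈ Icc α β, HasDerivWithinAt w (lam t • (a + t • b)) (Icc α β) t)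
    (Λ : ℝ) (hΛ : ∀ t ∈ Icc α β, |lam t| ≤ Λ) (c τ : ℝ) (hc : c ∈ Icc α β) (hτ : τ ∈ Icc α β) :
    ∃ m ζ : ℝ, |m| ≤ Λ * |τ - c| ∧ |ζ| ≤ Λ * |τ - c| * |τ - c| ∧
      w τ - w c = m • (a + τ • b) + ζ • b := by
  have hsub : uIcc c τ ⊆ Icc α β := uIcc_subset_Icc hc hτ
  have hwcont : ContinuousOn w (Icc α β) := fun t ht => (hw' t ht).continuousWithinAt
  have hlam' : ContinuousOn lam (uIcc c τ) := hlam.mono hsub
  have hid : ContinuousOn (fun σ : ℝ => σ) (uIcc c τ) := continuousOn_id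
  -- FTC
  have hFTC : ∫ σ in c..τ, lam σ • (a + σ • b) = w τ - w c := by
    apply intervalIntegral.integral_eq_sub_of_hasDeriv_right (hwcont.mono hsub)
    · intro x hx
      have hx' : x ∈ Ioo α β := by
        constructor
        · exact lt_of_le_of_lt (le_min hc.1 hτ.1) hx.1
        · exact lt_of_lt_of_le hx.2 (max_le hc.2 hτ.2)
      have := (hw' x (Ioo_subset_Icc_self hx')).hasDerivAt (Icc_mem_nhds hx'.1 hx'.2)
      exact this.hasDerivWithinAt
    · apply ContinuousOn.intervalIntegrable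
      exact hlam'.smul (continuousOn_const.add (hid.smul continuousOn_const))
  have hI1 : IntervalIntegrable lam volume c τ := hlam'.intervalIntegrable
  have hI2 : IntervalIntegrable (fun σ => lam σ * σ) volume c τ :=
    (hlam'.mul hid).intervalIntegrable
  have hsplit : ∫ σ in c..τ, lam σ • (a + σ • b)
      = (∫ σ in c..τ, lam σ) • a + (∫ σ in c..τ, lam σ * σ) • b := by
    have : (fun σ => lam σ • (a + σ • b)) = fun σ => lam σ • a + (lam σ * σ) • b := by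
      funext σ; rw [smul_add, smul_smul]
    have hJ1 : IntervalIntegrable (fun σ => lam σ • a) volume c τ :=
      (hlam'.smul continuousOn_const).intervalIntegrable
    have hJ2 : IntervalIntegrable (fun σ => (lam σ * σ) • b) volume c τ :=
      ((hlam'.mul hid).smul continuousOn_const).intervalIntegrable
    rw [this, intervalIntegral.integral_add hJ1 hJ2,
      intervalIntegral.integral_smul_const, intervalIntegral.integral_smul_const]
  refine ⟨∫ σ in c..τ, lam σ, (∫ σ in c..τ, lam σ * σ) - τ * ∫ σ in c..τ, lam σ, ?_, ?_, ?_⟩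
  · have := intervalIntegral.norm_integral_le_of_norm_le_const (a := c) (b := τ) (f := lam)
      (C := Λ) (fun x hx => by
        rw [Real.norm_eq_abs]
        exact hΛ x (hsub (uIoc_subset_uIcc hx)))
    rwa [Real.norm_eq_abs] at this
  · have heq : (∫ σ in c..τ, lam σ * σ) - τ * ∫ σ in c..τ, lam σ
        = ∫ σ in c..τ, lam σ * (σ - τ) := by
      have : (fun σ => lam σ * (σ - τ)) = fun σ => lam σ * σ - τ * lam σ := by
        funext σ; ring
      rw [this, intervalIntegral.integral_sub hI2 (hI1.const_mul τ),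
        intervalIntegral.integral_const_mul]
    rw [heq]
    have := intervalIntegral.norm_integral_le_of_norm_le_const (a := c) (b := τ)
      (f := fun σ => lam σ * (σ - τ)) (C := Λ * |τ - c|) (fun x hx => by
        have hx' := uIoc_subset_uIcc hx
        rw [Real.norm_eq_abs, abs_mul]
        have h1 : |lam x| ≤ Λ := hΛ x (hsub hx')
        have h2 : |x - τ| ≤ |τ - c| := by
          rw [abs_sub_comm x τ]
          exact abs_sub_right_of_mem_uIcc hx'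
        exact mul_le_mul h1 h2 (abs_nonneg _) (le_trans (abs_nonneg _) h1))
    rwa [Real.norm_eq_abs] at this
  · rw [← hFTC, hsplit]
    module

end Crest.Agent.S0328Lib
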