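import Crest.Agent.S0328Lib.Piece

/-!
# S0328 helper library: covering / inner triangles of one piece

* `piece_mem_tri`: a point of the piece lies, modulo the axis, in the planar covering triangle,
* `tri_area`: area of a projected planar triangle (given the triangle area formula),
* `tri_affineIndependent`: nondegeneracy,
* `inner_tri_subset`: the inner planar triangle is contained in the piece.
-/

set_option autoImplicit false
open MeasureTheory Set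
open scoped ENNReal

namespace Crest.Agent.S0328Lib

local notation "E3" => EuclideanSpace ℝ (Fin 3)

/-- Every point of a piece is, modulo the axis `e + w c`, in the planar covering triangle. -/
lemma piece_mem_tri (e a b p₀ : E3) (α β : ℝ) (w : ℝ → E3) (lam : ℝ → ℝ)
    (hlam : ContinuousOn lam (Icc α β))
    (hw' : ∀ t ∈ Icc α β, HasDerivWithinAt w (lam t • (a + t • b)) (Icc α β) t)
    (Λ : ℝ) (hΛ : ∀ t ∈ Icc α β, |lam t| ≤ Λ) (hΛ0 : 0 ≤ Λ)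
    (L K t₁ t₂ c X : ℝ) (hL : 0 < L) (hK : 1 < K) (ht : t₁ < t₂) (ht₁ : α ≤ t₁) (ht₂ : t₂ ≤ β)
    (hc1 : t₁ ≤ c) (hc2 : c ≤ t₂)
    (hXμ : 0 < X + K * L * Λ * (t₂ - t₁))
    (τ ρ s : ℝ) (hτ1 : t₁ ≤ τ) (hτ2 : τ ≤ t₂) (hρ0 : 0 ≤ ρ) (hρX : ρ + L * Λ * (t₂ - t₁) ≤ X)
    (hs : |s| ≤ L) :
    ∃ y ∈ convexHull ℝ ({p₀ - (K * L * Λ * (t₂ - t₁)) • (a + c • b),
        p₀ - (K * L * Λ * (t₂ - t₁)) • (a + c • b)
          + (X + K * L * Λ * (t₂ - t₁)) • (a + (t₁ - 2 * (t₂ - t₁) / (K - 1)) • b),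
        p₀ - (K * L * Λ * (t₂ - t₁)) • (a + c • b)
          + (X + K * L * Λ * (t₂ - t₁)) • (a + (t₂ + 2 * (t₂ - t₁) / (K - 1)) • b)} : Set E3),
      p₀ + ρ • (a + τ • b) + s • (e + w τ) = y + s • (e + w c) := by
  have hcI : c ∈ Icc α β := ⟨by linarith, by linarith⟩
  have hτI : τ ∈ Icc α β := ⟨by linarith, by linarith⟩
  obtain ⟨m, ζ, hm, hζ, hdec⟩ := w_decomp a b α β w lam hlam hw' Λ hΛ c τ hcI hτI
  obtain ⟨l₁, l₂, h1, h2, h12, e1, e2⟩ := cover_core L Λ K t₁ t₂ c τ ρ s m ζ X hL hΛ0 hK ht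
    hc1 hc2 hτ1 hτ2 hρ0 hρX hs hm hζ hXμ
  refine ⟨_, mem_convexHull_triple _ _ _ l₁ l₂ h1 h2 h12, ?_⟩
  have hwτ : w τ = w c + m • (a + τ • b) + ζ • b := by
    linear_combination (norm := module) hdec
  rw [hwτ]
  linear_combination (norm := module) e1 • a + e2 • b


lemma gram_nonneg (a b : E3) : 0 ≤ ‖a‖ ^ 2 * ‖b‖ ^ 2 - inner ℝ a b ^ 2 := by
  have h := abs_real_inner_le_norm a b
  have h2 : inner ℝ a b ^ 2 ≤ (‖a‖ * ‖b‖) ^ 2 := by
    rw [← sq_abs (inner ℝ a b)]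
    exact pow_le_pow_left₀ (abs_nonneg _) h 2
  nlinarith [h2]

/-- Area of the projection along `e + wc` of the planar triangle with vertices
`y₀`, `y₀ + X • (a + s₁ • b)`, `y₀ + X • (a + s₂ • b)`. -/
lemma tri_area
    (hT : ∀ p q r : E3, μHE[2] (convexHull ℝ ({p, q, r} : Set E3)) =
      ENNReal.ofReal (Real.sqrt (‖q - p‖ ^ 2 * ‖r - p‖ ^ 2 - inner ℝ (q - p) (r - p) ^ 2) / 2))
    (e a b wc : E3) (he : ‖e‖ = 1) (ha : inner ℝ a e = 0) (hb : inner ℝ b e = 0)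
    (hw : inner ℝ wc e = 0) (y₀ : E3) (X s₁ s₂ : ℝ) (h12 : s₁ ≤ s₂) :
    μHE[2] (convexHull ℝ ({projL (e + wc) y₀, projL (e + wc) (y₀ + X • (a + s₁ • b)),
        projL (e + wc) (y₀ + X • (a + s₂ • b))} : Set E3)) =
      ENNReal.ofReal (Real.sqrt (‖a‖ ^ 2 * ‖b‖ ^ 2 - inner ℝ a b ^ 2) * (X ^ 2 * (s₂ - s₁))
        / (2 * Real.sqrt (1 + ‖wc‖ ^ 2))) := by
  rw [hT]
  congr 1
  have hu : ∀ s : ℝ, projL (e + wc) (y₀ + X • (a + s • b)) - projL (e + wc) y₀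
      = projL (e + wc) (X • a + (X * s) • b) := by
    intro s
    rw [map_add, add_sub_cancel_left, smul_add, smul_smul]
  have hue : ∀ s : ℝ, inner ℝ (X • a + (X * s) • b) e = 0 := by
    intro s
    rw [inner_add_left, inner_smul_left, inner_smul_left, ha, hb]
    simp
  rw [hu s₁, hu s₂, gram_projL e wc he hw _ _ (hue s₁) (hue s₂), gram_coord]
  have hG := gram_nonneg a b
  have hD : (0 : ℝ) < 1 + ‖wc‖ ^ 2 := by positivity
  have hA : 0 ≤ X ^ 2 * (s₂ - s₁) := mul_nonneg (sq_nonneg _) (by linarith)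
  have e1 : (X * (X * s₂) - X * s₁ * X) ^ 2 * (‖a‖ ^ 2 * ‖b‖ ^ 2 - inner ℝ a b ^ 2) / (1 + ‖wc‖ ^ 2)
      = (X ^ 2 * (s₂ - s₁)) ^ 2 * (‖a‖ ^ 2 * ‖b‖ ^ 2 - inner ℝ a b ^ 2) / (1 + ‖wc‖ ^ 2) := by
    ring
  rw [e1, Real.sqrt_div (mul_nonneg (sq_nonneg _) hG), Real.sqrt_mul (sq_nonneg _),
    Real.sqrt_sq hA]
  have hsD : 0 < Real.sqrt (1 + ‖wc‖ ^ 2) := Real.sqrt_pos.mpr hD
  field_simp

/-- The projected planar triangle is nondegenerate. -/
lemma tri_affineIndependent (e a b wc : E3) (he : ‖e‖ = 1) (ha : inner ℝ a e = 0)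
    (hb : inner ℝ b e = 0) (hw : inner ℝ wc e = 0) (hab : LinearIndependent ℝ ![a, b])
    (y₀ : E3) (X s₁ s₂ : ℝ) (hX : X ≠ 0) (h12 : s₁ ≠ s₂) :
    AffineIndependent ℝ ![projL (e + wc) y₀, projL (e + wc) (y₀ + X • (a + s₁ • b)),
        projL (e + wc) (y₀ + X • (a + s₂ • b))] := by
  rw [affineIndependent_iff_of_fintype]
  intro ω hω hsum
  rw [Finset.weightedVSub_eq_linear_combination _ hω] at hsum
  simp only [Fin.sum_univ_three, Matrix.cons_val_zero, Matrix.cons_val_one,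
    Matrix.cons_val_two, Matrix.head_cons, Matrix.tail_cons] at hω hsum
  set d := e + wc with hd
  have hdne : d ≠ 0 := e_add_ne_zero e wc he hw
  -- the planar vector
  set z : E3 := (X * (ω 1 + ω 2)) • a + (X * (ω 1 * s₁ + ω 2 * s₂)) • b with hz
  have hPz : projL d z = 0 := by
    rw [← hsum, hz]
    simp only [map_add, map_smul]
    have : ω 0 = -(ω 1 + ω 2) := by linarith
    rw [this]
    module
  have hze : inner ℝ z e = 0 := by
    rw [hz, inner_add_left, inner_smul_left, inner_smul_left, ha, hb]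
    simp
  have hde : inner ℝ d e = 1 := by
    rw [hd, inner_add_left, hw, real_inner_self_eq_norm_sq, he]
    norm_num
  have hz0 : z = 0 := by
    have h1 := eq_projL_add d z
    rw [hPz, zero_add] at h1
    have h2 : inner ℝ z e = (inner ℝ z d / ‖d‖ ^ 2) * inner ℝ d e := by
      conv_lhs => rw [h1]
      rw [inner_smul_left]
      simp
    rw [hze, hde, mul_one] at h2
    rw [h1, ← h2, zero_smul]
  obtain ⟨c1, c2⟩ := LinearIndependent.pair_iff.mp hab _ _ hz0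
  have c1' : ω 1 + ω 2 = 0 := by
    rcases mul_eq_zero.mp c1 with h | h
    · exact absurd h hX
    · exact h
  have c2' : ω 1 * s₁ + ω 2 * s₂ = 0 := by
    rcases mul_eq_zero.mp c2 with h | h
    · exact absurd h hX
    · exact h
  have h2 : ω 2 * (s₂ - s₁) = 0 := by linear_combination c2' - s₁ * c1'
  have hω2 : ω 2 = 0 := by
    rcases mul_eq_zero.mp h2 with h | h
    · exact h
    · exact absurd (sub_eq_zero.mp h).symm h12
  have hω1 : ω 1 = 0 := by linarith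
  have hω0 : ω 0 = 0 := by linarith
  intro i
  fin_cases i
  · exact hω0
  · exact hω1
  · exact hω2

/-- The inner planar triangle is contained in the piece (slice `s = 0`). -/
lemma inner_tri_subset (e a b p₀ : E3) (w : ℝ → E3) (R : ℝ → ℝ) (L t₁ t₂ ρ₀ : ℝ) (hL : 0 ≤ L)
    (ht : t₁ ≤ t₂) (hρ₀ : 0 ≤ ρ₀) (hR : ∀ τ ∈ Icc t₁ t₂, ρ₀ ≤ R τ) :
    convexHull ℝ ({p₀, p₀ + ρ₀ • (a + t₁ • b), p₀ + ρ₀ • (a + t₂ • b)} : Set E3) ⊆
      {x : E3 | ∃ τ ∈ Icc t₁ t₂, ∃ ρ ∈ Icc 0 (R τ), ∃ s : ℝ, |s| ≤ L ∧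
        x = p₀ + ρ • (a + τ • b) + s • (e + w τ)} := by
  intro x hx
  rw [convexHull_insert (by simp), convexHull_pair] at hx
  obtain ⟨x', hx', y', hy', hxy⟩ := mem_convexJoin.mp hx
  rw [mem_singleton_iff] at hx'
  subst hx'
  obtain ⟨j₁, j₂, hj₁, hj₂, hj, rfl⟩ := hy'
  obtain ⟨k₁, k₂, hk₁, hk₂, hk, rfl⟩ := hxy
  refine ⟨j₁ * t₁ + j₂ * t₂, ⟨?_, ?_⟩, k₂ * ρ₀, ⟨by positivity, ?_⟩, 0, by simpa using hL, ?_⟩
  · have : t₁ = j₁ * t₁ + j₂ * t₁ := by rw [← add_mul, hj, one_mul]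
    nlinarith
  · have : t₂ = j₁ * t₂ + j₂ * t₂ := by rw [← add_mul, hj, one_mul]
    nlinarith
  · have hτ : j₁ * t₁ + j₂ * t₂ ∈ Icc t₁ t₂ := by
      constructor
      · have : t₁ = j₁ * t₁ + j₂ * t₁ := by rw [← add_mul, hj, one_mul]
        nlinarith
      · have : t₂ = j₁ * t₂ + j₂ * t₂ := by rw [← add_mul, hj, one_mul]
        nlinarith
    have h1 := hR _ hτ
    have hk2 : k₂ ≤ 1 := by linarith
    calc k₂ * ρ₀ ≤ 1 * ρ₀ := mul_le_mul_of_nonneg_right hk2 hρ₀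
      _ = ρ₀ := one_mul _
      _ ≤ _ := h1
  · have hk1 : k₁ = 1 - k₂ := by linarith
    have hj1 : j₁ = 1 - j₂ := by linarith
    rw [hk1, hj1]
    module

end Crest.Agent.S0328Lib
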