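import Crest.Agent.S0328Lib.Tri

/-!
# S0328 helper library: the covering triangle and the inner triangle of one piece
-/

set_option autoImplicit false
open MeasureTheory Set
open scoped ENNReal

namespace Crest.Agent.S0328Lib

local notation "E3" => EuclideanSpace ℝ (Fin 3)

/-- The weight `1 / (2 √(1 + ‖w τ‖²))`. -/
noncomputable def gfun (w : ℝ → E3) (τ : ℝ) : ℝ := 1 / (2 * Real.sqrt (1 + ‖w τ‖ ^ 2))

lemma gfun_nonneg (w : ℝ → E3) (τ : ℝ) : 0 ≤ gfun w τ := by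
  unfold gfun; positivity

lemma gfun_le_half (w : ℝ → E3) (τ : ℝ) : gfun w τ ≤ 1 / 2 := by
  unfold gfun
  have h1 : (1 : ℝ) ≤ Real.sqrt (1 + ‖w τ‖ ^ 2) := by
    rw [Real.one_le_sqrt]; nlinarith [sq_nonneg ‖w τ‖]
  rw [div_le_div_iff₀ (by positivity) (by norm_num)]
  linarith

lemma gfun_continuousOn (w : ℝ → E3) (s : Set ℝ) (hw : ContinuousOn w s) :
    ContinuousOn (gfun w) s := by
  unfold gfun
  apply ContinuousOn.div continuousOn_const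
  · apply ContinuousOn.mul continuousOn_const
    apply Real.continuous_sqrt.comp_continuousOn
    exact continuousOn_const.add (hw.norm.pow 2)
  · intro x _
    have : 0 < Real.sqrt (1 + ‖w x‖ ^ 2) := Real.sqrt_pos.mpr (by positivity)
    positivity

/-- One piece of the swept set. -/
def pieceSet (e a b p₀ : E3) (L : ℝ) (R : ℝ → ℝ) (w : ℝ → E3) (t₁ t₂ : ℝ) : Set E3 :=
  {x : E3 | ∃ τ ∈ Icc t₁ t₂, ∃ ρ ∈ Icc 0 (R τ), ∃ s : ℝ, |s| ≤ L ∧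
    x = p₀ + ρ • (a + τ • b) + s • (e + w τ)}

/-- Apex of the planar covering triangle. -/
noncomputable def upY (a b p₀ : E3) (L Λ K t₁ t₂ c : ℝ) : E3 :=
  p₀ - (K * L * Λ * (t₂ - t₁)) • (a + c • b)

/-- Vertices of the covering triangle (projected along `e + w c`). -/
noncomputable def upP (e a b p₀ : E3) (w : ℝ → E3) (L Λ K t₁ t₂ c : ℝ) : E3 :=
  projL (e + w c) (upY a b p₀ L Λ K t₁ t₂ c)

noncomputable def upQ (e a b p₀ : E3) (w : ℝ → E3) (L Λ K Rm t₁ t₂ c : ℝ) : E3 :=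
  projL (e + w c) (upY a b p₀ L Λ K t₁ t₂ c
    + (Rm + L * Λ * (t₂ - t₁) + K * L * Λ * (t₂ - t₁)) • (a + (t₁ - 2 * (t₂ - t₁) / (K - 1)) • b))

noncomputable def upR (e a b p₀ : E3) (w : ℝ → E3) (L Λ K Rm t₁ t₂ c : ℝ) : E3 :=
  projL (e + w c) (upY a b p₀ L Λ K t₁ t₂ c
    + (Rm + L * Λ * (t₂ - t₁) + K * L * Λ * (t₂ - t₁)) • (a + (t₂ + 2 * (t₂ - t₁) / (K - 1)) • b))

section

variable (e a b p₀ : E3) (he : ‖e‖ = 1) (ha : inner ℝ a e = 0) (hb : inner ℝ b e = 0)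
  (w : ℝ → E3) (L Λ K Rm t₁ t₂ c : ℝ) (hwc : inner ℝ (w c) e = 0)

include he hwc in
lemma upP_inner : inner ℝ (upP e a b p₀ w L Λ K t₁ t₂ c) (e + w c) = 0 :=
  inner_projL_self _ _ (e_add_ne_zero e (w c) he hwc)

include he hwc in
lemma upQ_inner : inner ℝ (upQ e a b p₀ w L Λ K Rm t₁ t₂ c) (e + w c) = 0 :=
  inner_projL_self _ _ (e_add_ne_zero e (w c) he hwc)

include he hwc in
lemma upR_inner : inner ℝ (upR e a b p₀ w L Λ K Rm t₁ t₂ c) (e + w c) = 0 :=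
  inner_projL_self _ _ (e_add_ne_zero e (w c) he hwc)

include he ha hb hwc in
lemma up_affineIndependent (hab : LinearIndependent ℝ ![a, b]) (hL : 0 < L) (hΛ : 0 < Λ)
    (hK : 1 < K) (ht : t₁ < t₂) (hRm : 0 ≤ Rm) :
    AffineIndependent ℝ ![upP e a b p₀ w L Λ K t₁ t₂ c, upQ e a b p₀ w L Λ K Rm t₁ t₂ c,
      upR e a b p₀ w L Λ K Rm t₁ t₂ c] := by
  have hΔ : 0 < t₂ - t₁ := by linarith
  have hK1 : 0 < K - 1 := by linarith
  apply tri_affineIndependent e a b (w c) he ha hb hwc hab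
  · have : 0 < Rm + L * Λ * (t₂ - t₁) + K * L * Λ * (t₂ - t₁) := by positivity
    exact this.ne'
  · have : 0 < 2 * (t₂ - t₁) / (K - 1) := by positivity
    intro h
    linarith

include he ha hb hwc in
lemma up_area
    (hT : ∀ p q r : E3, μHE[2] (convexHull ℝ ({p, q, r} : Set E3)) =
      ENNReal.ofReal (Real.sqrt (‖q - p‖ ^ 2 * ‖r - p‖ ^ 2 - inner ℝ (q - p) (r - p) ^ 2) / 2))
    (hK : 1 < K) (ht : t₁ < t₂) :
    μHE[2] (convexHull ℝ ({upP e a b p₀ w L Λ K t₁ t₂ c, upQ e a b p₀ w L Λ K Rm t₁ t₂ c,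
      upR e a b p₀ w L Λ K Rm t₁ t₂ c} : Set E3)) =
    ENNReal.ofReal (Real.sqrt (‖a‖ ^ 2 * ‖b‖ ^ 2 - inner ℝ a b ^ 2) * ((t₂ - t₁) *
      ((1 + 4 / (K - 1)) * (Rm + (K + 1) * L * Λ * (t₂ - t₁)) ^ 2 * gfun w c))) := by
  have hΔ : 0 < t₂ - t₁ := by linarith
  have hK1 : 0 < K - 1 := by linarith
  unfold upP upQ upR
  rw [tri_area hT e a b (w c) he ha hb hwc]
  · congr 1
    unfold gfun
    have hs : 0 < Real.sqrt (1 + ‖w c‖ ^ 2) := Real.sqrt_pos.mpr (by positivity)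
    field_simp
    ring
  · have : 0 < 2 * (t₂ - t₁) / (K - 1) := by positivity
    linarith

end

section

variable (e a b p₀ : E3) (he : ‖e‖ = 1) (ha : inner ℝ a e = 0) (hb : inner ℝ b e = 0)
  (w : ℝ → E3) (L Λ K Rm t₁ t₂ c : ℝ) (hwc : inner ℝ (w c) e = 0)

include he hwc in
/-- The projection of the piece along `e + w c` lies in the covering triangle. -/
lemma up_mem (R : ℝ → ℝ) (α β : ℝ) (lam : ℝ → ℝ) (hlam : ContinuousOn lam (Icc α β))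
    (hw' : ∀ t ∈ Icc α β, HasDerivWithinAt w (lam t • (a + t • b)) (Icc α β) t)
    (hΛb : ∀ t ∈ Icc α β, |lam t| ≤ Λ) (hΛ : 0 < Λ) (hL : 0 < L) (hK : 1 < K) (ht : t₁ < t₂)
    (ht₁ : α ≤ t₁) (ht₂ : t₂ ≤ β) (hc1 : t₁ ≤ c) (hc2 : c ≤ t₂)
    (hRm : ∀ τ ∈ Icc t₁ t₂, R τ ≤ Rm) (hRm0 : 0 ≤ Rm) (x : E3)
    (hx : x ∈ pieceSet e a b p₀ L R w t₁ t₂) :
    projL (e + w c) x ∈ convexHull ℝ ({upP e a b p₀ w L Λ K t₁ t₂ c,
      upQ e a b p₀ w L Λ K Rm t₁ t₂ c, upR e a b p₀ w L Λ K Rm t₁ t₂ c} : Set E3) := by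
  obtain ⟨τ, hτ, ρ, hρ, s, hs, rfl⟩ := hx
  have hΔ : 0 < t₂ - t₁ := by linarith
  have hd := e_add_ne_zero e (w c) he hwc
  obtain ⟨y, hy, hxy⟩ := piece_mem_tri e a b p₀ α β w lam hlam hw' Λ hΛb hΛ.le L K t₁ t₂ c
    (Rm + L * Λ * (t₂ - t₁)) hL hK ht ht₁ ht₂ hc1 hc2 (by positivity) τ ρ s hτ.1 hτ.2 hρ.1
    (by linarith [hRm τ hτ, hρ.2]) hs
  rw [hxy, projL_add_smul_self _ _ _ hd]
  have himg : projL (e + w c) y ∈ projL (e + w c) '' convexHull ℝ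
      ({p₀ - (K * L * Λ * (t₂ - t₁)) • (a + c • b),
        p₀ - (K * L * Λ * (t₂ - t₁)) • (a + c • b)
          + (Rm + L * Λ * (t₂ - t₁) + K * L * Λ * (t₂ - t₁))
            • (a + (t₁ - 2 * (t₂ - t₁) / (K - 1)) • b),
        p₀ - (K * L * Λ * (t₂ - t₁)) • (a + c • b)
          + (Rm + L * Λ * (t₂ - t₁) + K * L * Λ * (t₂ - t₁))
            • (a + (t₂ + 2 * (t₂ - t₁) / (K - 1)) • b)} : Set E3) :=
    mem_image_of_mem _ hy
  rw [LinearMap.image_convexHull, image_insert_eq, image_insert_eq, image_singleton] at himg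
  exact himg

include he ha hb hwc in
/-- Lower bound for the area of the projected piece. -/
lemma low_area
    (hT : ∀ p q r : E3, μHE[2] (convexHull ℝ ({p, q, r} : Set E3)) =
      ENNReal.ofReal (Real.sqrt (‖q - p‖ ^ 2 * ‖r - p‖ ^ 2 - inner ℝ (q - p) (r - p) ^ 2) / 2))
    (R : ℝ → ℝ) (hL : 0 ≤ L) (ht : t₁ ≤ t₂) (ρ₀ : ℝ) (hρ₀ : 0 ≤ ρ₀)
    (hR : ∀ τ ∈ Icc t₁ t₂, ρ₀ ≤ R τ) :
    ENNReal.ofReal (Real.sqrt (‖a‖ ^ 2 * ‖b‖ ^ 2 - inner ℝ a b ^ 2) *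
      ((t₂ - t₁) * (ρ₀ ^ 2 * gfun w c))) ≤
    μHE[2] (projL (e + w c) '' pieceSet e a b p₀ L R w t₁ t₂) := by
  have hsub := inner_tri_subset e a b p₀ w R L t₁ t₂ ρ₀ hL ht hρ₀ hR
  have hmono := measure_mono (μ := (μHE[2] : Measure E3)) (image_mono (f := projL (e + w c)) hsub)
  rw [LinearMap.image_convexHull, image_insert_eq, image_insert_eq, image_singleton,
    tri_area hT e a b (w c) he ha hb hwc p₀ ρ₀ t₁ t₂ ht] at hmono
  refine le_trans (le_of_eq ?_) hmono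
  congr 1
  unfold gfun
  have hs : 0 < Real.sqrt (1 + ‖w c‖ ^ 2) := Real.sqrt_pos.mpr (by positivity)
  field_simp

end

end Crest.Agent.S0328Lib
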